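import Crest.Agent.R163.Q3.D.B8.P0_0
import Crest.Agent.R163.Q3.D.B8.P0_1

set_option autoImplicit false
set_option maxRecDepth 100000
set_option linter.all false
set_option Elab.async false

namespace Crest.Agent.R163.B8

theorem o0_7 : Ok2 par f7 Box3.unit C0 :=
  (Ok2.part 590295802083907294719 p0_7_7 (Ok2.part 255 p0_7_6 (Ok2.split 0 (Ok2.part 4 p0_7_4 (Ok2.split 1 (Ok2.part 80 p0_7_2 (Ok2.split 0 p0_7_0 p0_7_1)) p0_7_3)) p0_7_5)))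
theorem o0_6 : Ok2 par f6 Box3.unit C0 :=
  (Ok2.part 590295807607235237375 p0_6_2 (Ok2.part 255 p0_6_0 p0_6_1))
theorem o0_5 : Ok2 par f5 Box3.unit C0 :=
  (Ok2.part 590286882325893830143 p0_5_17 (Ok2.part 127 p0_5_16 (Ok2.split 0 (Ok2.part 24347 p0_5_7 (Ok2.split 1 p0_5_6 (Ok2.split 0 p0_5_5 (Ok2.part 193 p0_5_4 (Ok2.split 1 p0_5_3 (Ok2.part 64 p0_5_2 (Ok2.split 0 p0_5_0 p0_5_1))))))) (Ok2.part 2031620 p0_5_15 (Ok2.split 1 p0_5_14 (Ok2.part 16510 p0_5_13 (Ok2.split 0 (Ok2.part 21 p0_5_11 (Ok2.split 1 p0_5_10 (Ok2.split 0 p0_5_8 p0_5_9))) p0_5_12)))))))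
theorem o0_4 : Ok2 par f4 Box3.unit C0 :=
  (Ok2.part 590295610900424425471 p0_4_4 (Ok2.split 0 p0_4_3 (Ok2.split 0 p0_4_2 (Ok2.split 1 p0_4_0 p0_4_1))))
theorem o0_3 : Ok2 par f3 Box3.unit C0 :=
  (Ok2.part 295219962773139095551 p0_3_8 (Ok2.split 1 p0_3_7 (Ok2.split 0 p0_3_6 (Ok2.part 16 p0_3_5 (Ok2.split 1 p0_3_4 (Ok2.part 1 p0_3_3 (Ok2.split 0 p0_3_2 (Ok2.part 575 p0_3_0 p0_3_1))))))))
theorem o0_2 : Ok2 par f2 Box3.unit C0 :=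
  (Ok2.part 295193219664318922751 p0_2_13 (Ok2.split 1 (Ok2.part 7117733272 p0_2_3 (Ok2.split 0 p0_2_2 (Ok2.part 88 p0_2_0 p0_2_1))) (Ok2.part 131072743 p0_2_12 (Ok2.split 0 p0_2_11 (Ok2.split 1 (Ok2.part 16383 p0_2_4 p0_2_5) (Ok2.part 1040385 p0_2_10 (Ok2.split 0 p0_2_9 (Ok2.split 1 p0_2_8 (Ok2.part 399 p0_2_6 p0_2_7)))))))))
theorem o0_1 : Ok2 par f1 Box3.unit C0 :=
  (Ok2.part 590295810358604988415 p0_1_0 p0_1_1)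
theorem o0_0 : Ok2 par f0 Box3.unit C0 :=
  p0_0_0

theorem pt0 : PtAll2 par C0 :=
  PtAll2.of_okD hw (OkD2.cover [f0.dom,f1.dom,f2.dom,f3.dom,f4.dom,f5.dom,f6.dom,f7.dom]
    (.split 0 (.leaf 0) (.split 1 (.split 0 (.leaf 1) (.leaf 2)) (.split 0 (.leaf 3) (.split 1 (.leaf 4) (.split 0 (.leaf 5) (.split 1 (.leaf 6) (.leaf 7)))))))
    (by decide +kernel)
    (List.forall_mem_cons.2 ⟨OkD2.of_ok o0_0, (List.forall_mem_cons.2 ⟨OkD2.of_ok o0_1, (List.forall_mem_cons.2 ⟨OkD2.of_ok o0_2, (List.forall_mem_cons.2 ⟨OkD2.of_ok o0_3, (List.forall_mem_cons.2 ⟨OkD2.of_ok o0_4, (List.forall_mem_cons.2 ⟨OkD2.of_ok o0_5, (List.forall_mem_cons.2 ⟨OkD2.of_ok o0_6, (List.forall_mem_cons.2 ⟨OkD2.of_ok o0_7, (fun _ h => nomatch h)⟩)⟩)⟩)⟩)⟩)⟩)⟩)⟩))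

end Crest.Agent.R163.B8
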